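import Vale.Agent.Lib.P369G.Main

/-!
# P369: the entropy photon-number inequality for two modes, vacuum second input, gauge-invariant first input

Two bosonic modes, `ρ_B` the vacuum, `ρ_A` any density operator commuting with the total photon number
with at most `K` photons (so `ρ_A` is a direct sum of blocks on the `k`-photon sectors, with arbitrary,
possibly entangled, eigenvectors).  Then `N(ρ_C) ≥ η N(ρ_A)` for all `η ∈ [0,1]`, where
`N(ρ) = g⁻¹(S(ρ)/2)`.
-/

namespace Vale.Agent.Results.P369.GaugeTwoMode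

open Vale.Agent.Lib.P369G

/-- The function `g` is onto `[0, ∞)`. -/
theorem exists_gFun_eq {s : ℝ} (hs : 0 ≤ s) : ∃ y, 0 ≤ y ∧ gFun y = s := by
  have hlow : ∀ y, 0 ≤ y → Real.log (y + 1) ≤ gFun y := by
    intro y hy
    have h := psi_eq hy
    have hpsi : 0 ≤ psiFun y := by
      unfold psiFun
      apply mul_nonneg hy
      apply Real.log_nonneg
      have : 0 ≤ 1 / y := by positivity
      linarith
    linarith
  have hy0 : (0 : ℝ) ≤ Real.exp s - 1 := by
    have := Real.add_one_le_exp s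
    linarith
  have h1 : s ≤ gFun (Real.exp s - 1) := by
    have := hlow _ hy0
    rwa [sub_add_cancel, Real.log_exp] at this
  have hivt := intermediate_value_Icc hy0 gFun_continuous.continuousOn
  rw [gFun_zero] at hivt
  obtain ⟨y, hy, hye⟩ := hivt ⟨hs, h1⟩
  exact ⟨y, hy.1, hye⟩

end Vale.Agent.Results.P369.GaugeTwoMode

/-- **Entropy photon-number inequality, two modes, vacuum second input, gauge-invariant first input.**
The numbers `yA = g⁻¹(S(ρ)/2)` and `yC = g⁻¹(S(ρ_C)/2)` satisfy `η * yA ≤ yC`. -/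
theorem Vale.Agent.Results.P369.GaugeTwoMode.result
    (K : ℕ) (ρ : Vale.Agent.Lib.P369G.Blocks) (h : Vale.Agent.Lib.P369G.IsGaugeState K ρ)
    (η : ℝ) (hη0 : 0 ≤ η) (hη1 : η ≤ 1) :
    ∃ yA yC : ℝ, 0 ≤ yA ∧ 0 ≤ yC ∧
      Vale.Agent.Lib.P369G.gFun yA = Vale.Agent.Lib.P369G.totalEnt K ρ / 2 ∧
      Vale.Agent.Lib.P369G.gFun yC = Vale.Agent.Lib.P369G.totalEnt K (Vale.Agent.Lib.P369G.lossBlocks K η ρ) / 2 ∧
      η * yA ≤ yC := by
  open Vale.Agent.Lib.P369G in
  have hρ : 0 ≤ totalEnt K ρ / 2 := by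
    have := totalEnt_nonneg K ρ h.psd h.tr_one
    positivity
  open Vale.Agent.Lib.P369G in
  have hσ : 0 ≤ totalEnt K (lossBlocks K η ρ) / 2 := by
    have := totalEnt_nonneg K (lossBlocks K η ρ) (fun k => loss_posSemidef K hη0 hη1 h.psd k)
      (by rw [loss_trace K hη0 h.supp, h.tr_one])
    positivity
  obtain ⟨yA, hyA0, hyA⟩ := Vale.Agent.Results.P369.GaugeTwoMode.exists_gFun_eq hρ
  obtain ⟨yC, hyC0, hyC⟩ := Vale.Agent.Results.P369.GaugeTwoMode.exists_gFun_eq hσ
  refine ⟨yA, yC, hyA0, hyC0, hyA, hyC, ?_⟩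
  open Vale.Agent.Lib.P369G in
  have hmain := main_psd K h hyA0 (by rw [hyA]; ring) hη0 hη1
  open Vale.Agent.Lib.P369G in
  have hle : gFun (η * yA) ≤ gFun yC := by
    rw [hyC]
    linarith
  open Vale.Agent.Lib.P369G in
  by_contra hcon
  push Not at hcon
  open Vale.Agent.Lib.P369G in
  have := gFun_strictMonoOn (Set.mem_Ici.2 hyC0) (Set.mem_Ici.2 (mul_nonneg hη0 hyA0)) hcon
  linarith
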