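import Vale.Agent.Results.P369.FockDiagonal
import Vale.Agent.Results.P369.GaugeTwoMode

/-!
# P369: the entropy photon-number inequality on two input classes

First part: all Fock-diagonal inputs, every number of modes, every `η` (see `FockDiagonal`).
Second part: two modes, vacuum second input, first input any density operator commuting with the
total photon number with at most `K` photons, possibly with entangled eigenvectors (see `GaugeTwoMode`).
-/

open Vale.Agent.Lib.P369 in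
/-- Both cases of the entropy photon-number inequality, in one statement. -/
theorem Vale.Agent.Results.P369.A0Conj.result :
    ((∀ η : ℝ, 0 ≤ η → η ≤ 1 →
      bsAmp η 0 0 0 0 = 1 ∧
      (∀ k j m l : ℕ, (∀ h : k + j ≠ m + l, bsAmp η k j m l = 0) ∧
        Real.sqrt (k + 1) * bsAmp η (k + 1) j m l =
          Real.sqrt η * Real.sqrt m * bsAmp η k j (m - 1) l +
            Real.sqrt (1 - η) * Real.sqrt l * bsAmp η k j m (l - 1) ∧
        Real.sqrt (j + 1) * bsAmp η k (j + 1) m l =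
          -(Real.sqrt (1 - η) * Real.sqrt m * bsAmp η k j (m - 1) l) +
            Real.sqrt η * Real.sqrt l * bsAmp η k j m (l - 1))) ∧
    (∀ x : ℝ, 0 ≤ x → 0 ≤ gInv x ∧ gFun (gInv x) = x) ∧
    (∀ (n : ℕ) (η : ℝ), 0 ≤ η → η ≤ 1 → ∀ a b : (Fin (n + 1) → ℕ) → ℝ,
      (∀ k, 0 ≤ a k) → HasSum a 1 → Summable (fun k => ((∑ i, k i : ℕ) : ℝ) * a k) →
      (∀ k, 0 ≤ b k) → HasSum b 1 → Summable (fun k => ((∑ i, k i : ℕ) : ℝ) * b k) →
      Summable (fun k => Real.negMulLog (bsOutM η a b k)) ∧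
        η * photonN a + (1 - η) * photonN b ≤ photonN (bsOutM η a b))) ∧
    (∀ (K : ℕ) (ρ : Vale.Agent.Lib.P369G.Blocks), Vale.Agent.Lib.P369G.IsGaugeState K ρ →
      ∀ η : ℝ, 0 ≤ η → η ≤ 1 →
      ∃ yA yC : ℝ, 0 ≤ yA ∧ 0 ≤ yC ∧
        Vale.Agent.Lib.P369G.gFun yA = Vale.Agent.Lib.P369G.totalEnt K ρ / 2 ∧
        Vale.Agent.Lib.P369G.gFun yC =
          Vale.Agent.Lib.P369G.totalEnt K (Vale.Agent.Lib.P369G.lossBlocks K η ρ) / 2 ∧
        η * yA ≤ yC) :=
  ⟨Vale.Agent.Results.P369.FockDiagonal.result,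
    fun K ρ h η h0 h1 => Vale.Agent.Results.P369.GaugeTwoMode.result K ρ h η h0 h1⟩
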