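import Vale.Agent.Lib.P369.FinalM

/-!
# P369: the entropy photon-number inequality for inputs non-increasing in each photon number

`bsAmp η k j m l = ⟨k,j|U_η|m,l⟩`.  The first part of `result` records that these numbers satisfy the relations defining the
beam splitter of the problem: the vacuum is fixed, `a U = U (√η a + √(1-η) b)`, `b U = U (-√(1-η) a + √η b)` in matrix elements.
Photon-number conservation gives `⟨k,j|U|m,l⟩ = 0` unless `k+j = m+l`, so on inputs `∑ a(m)|m⟩⟨m|`, `∑ b(l)|l⟩⟨l|` the output on the first modes is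
Fock-diagonal with eigenvalues `bsOutM η a b k = ∑_{m,l} a(m) b(l) ∏_i |⟨k_i, m_i+l_i-k_i|U_η|m_i,l_i⟩|²`.
-/

namespace Vale.Agent.Results.P369.CoordinatewisePassive

open Vale.Agent.Lib.P369

theorem result :
    (∀ η : ℝ, 0 ≤ η → η ≤ 1 →
      bsAmp η 0 0 0 0 = 1 ∧
      (∀ k j m l : ℕ, (∀ h : k + j ≠ m + l, bsAmp η k j m l = 0) ∧
        Real.sqrt (k + 1) * bsAmp η (k + 1) j m l =
          Real.sqrt η * Real.sqrt m * bsAmp η k j (m - 1) l +
            Real.sqrt (1 - η) * Real.sqrt l * bsAmp η k j m (l - 1) ∧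
        Real.sqrt (j + 1) * bsAmp η k (j + 1) m l =
          -(Real.sqrt (1 - η) * Real.sqrt m * bsAmp η k j (m - 1) l) +
            Real.sqrt η * Real.sqrt l * bsAmp η k j m (l - 1))) ∧
    (∀ x : ℝ, 0 ≤ x → 0 ≤ gInv x ∧ gFun (gInv x) = x) ∧
    (∀ (n : ℕ) (η : ℝ), 0 ≤ η → η ≤ 1 → ∀ a b : (Fin (n + 1) → ℕ) → ℝ,
      (∀ k, 0 ≤ a k) → Antitone a → HasSum a 1 → Summable (fun k => ((∑ i, k i : ℕ) : ℝ) * a k) →
      (∀ k, 0 ≤ b k) → Antitone b → HasSum b 1 → Summable (fun k => ((∑ i, k i : ℕ) : ℝ) * b k) →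
      Summable (fun k => Real.negMulLog (bsOutM η a b k)) ∧
        η * photonN a + (1 - η) * photonN b ≤ photonN (bsOutM η a b)) := by
  refine ⟨fun η h0 h1 => ⟨bsAmp_vacuum η, fun k j m l => ⟨fun h => ?_, bsAmp_relA h0 h1 k j m l,
    bsAmp_relB h0 h1 k j m l⟩⟩, fun x hx => ⟨gInv_nonneg hx, gFun_gInv hx⟩, ?_⟩
  · simp [bsAmp, h]
  · intro n η h0 h1 a b ha0 haa hsa hma hb0 hba hsb hmb
    exact EPnI_coordinatewise_passive h0 h1 ha0 haa hsa hma hb0 hba hsb hmb

end Vale.Agent.Results.P369.CoordinatewisePassive
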